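import Vale.Agent.P196.Main

/-- There is an infinite, finitely presented, simple, amenable (Folner condition) group. -/
theorem Vale.Agent.Results.P196.A_full.result :
    ∃ (G : Type) (_ : Group G), Infinite G ∧ Group.IsFinitelyPresented G ∧ IsSimpleGroup G ∧
      ∀ (K : Finset G) (ε : ℝ), 0 < ε → ∃ D : Finset G, D.Nonempty ∧
        ∀ g ∈ K, ((symmDiff ((fun x => g * x) '' (D : Set G)) (D : Set G)).ncard : ℝ)
          < ε * D.card :=
  Vale.Agent.P196.main
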